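import Vale.Agent.Lib.P063.Main

/-! # P063: threshold width of increasing families whose threshold is close to 0 or 1 -/

namespace Vale.Agent.Results.P063.ExtremeThresholds
open _root_.P063

theorem result :
    (∀ (E : Type) [Fintype E] [DecidableEq E] (P : Finset (Finset E)) (ε : ℝ) (k : ℕ),
      Increasing P → P.Nonempty → 0 < ε → ε < 1 → (1 - ε) ^ k ≤ ε →
      width ε P ≤ (k - 1) * pa ε P ∧ width ε P ≤ (k - 1) * (1 - pa (1 - ε) P)) ∧
    (∀ (n r : ℕ) (P : Finset (Finset {e : Finset (Fin n) // e.card = r})) (ε : ℝ) (k : ℕ),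
      Increasing P → P.Nonempty → 0 < ε → ε < 1 → (1 - ε) ^ k ≤ ε →
      (pa ε P ≤ (Real.log n) ^ (-(r : ℝ) / (r - 1)) ∨
        1 - pa (1 - ε) P ≤ (Real.log n) ^ (-(r : ℝ) / (r - 1))) →
      width ε P ≤ (k - 1) * (Real.log n) ^ (-(r : ℝ) / (r - 1))) := by
  refine ⟨fun E _ _ P ε k hP hne h0 h1 hk => width_le hP hne h0 h1 hk, ?_⟩
  intro n r P ε k hP hne h0 h1 hk h
  have hk1 : (0 : ℝ) ≤ (k : ℝ) - 1 := by
    have : (1 : ℝ) ≤ k := by exact_mod_cast k_pos h1 hk
    linarith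
  obtain ⟨a, b⟩ := width_le hP hne h0 h1 hk
  rcases h with h | h
  · exact a.trans (mul_le_mul_of_nonneg_left h hk1)
  · exact b.trans (mul_le_mul_of_nonneg_left h hk1)

end Vale.Agent.Results.P063.ExtremeThresholds
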